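import Vale.Agent.P032.S5.H349.EnL
import Vale.Agent.P032.S5.H12.Fld
import Vale.Agent.P032.S5.H824.Two

/-!
# P032: a two-pair centre has two complementary ends

`DPt.start`: `T z = {a, b, c, d}` with exact `ab`- and `cd`-arcs on `S(z)`; then `S(z)` has ends `v`, `q`
of exact arcs with `T q` the complement of `T v`.
-/

open Set Filter Topology Metric

noncomputable section

namespace Vale.Agent.P032.Six

open Vale.Agent.P032.S5.H767 Vale.Agent.P032.S5.H349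

variable {U : Fin 6 → Set ℂ} {T : ℂ → Set (Fin 6)} {z V Q : ℂ} {a b c d e f : Fin 6}

/-- the two missing colours -/
theorem DPt.exists_nodup (hz : DPt T z a b c d) : ∃ e f, [a, b, c, d, e, f].Nodup := by
  have hc : ({a, b, c, d} : Finset (Fin 6))ᶜ.card = 2 := by
    rw [Finset.card_compl, Finset.card_insert_of_notMem (by simp [hz.ab, hz.ac, hz.ad]),
      Finset.card_insert_of_notMem (by simp [hz.bc, hz.bd]), Finset.card_pair hz.cd]
    rfl
  obtain ⟨e, f, hef, hE⟩ := Finset.card_eq_two.1 hc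
  have he : e ∈ ({a, b, c, d} : Finset (Fin 6))ᶜ := by rw [hE]; simp
  have hf : f ∈ ({a, b, c, d} : Finset (Fin 6))ᶜ := by rw [hE]; simp
  simp only [Finset.mem_compl, Finset.mem_insert, Finset.mem_singleton, not_or] at he hf
  refine ⟨e, f, ?_⟩
  simp only [List.nodup_cons, List.mem_cons, List.not_mem_nil, or_false, not_or, not_false_eq_true,
    List.nodup_nil, and_true]
  exact ⟨⟨hz.ab, hz.ac, hz.ad, Ne.symm he.1, Ne.symm hf.1⟩,
    ⟨hz.bc, hz.bd, Ne.symm he.2.1, Ne.symm hf.2.1⟩,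
    ⟨hz.cd, Ne.symm he.2.2.1, Ne.symm hf.2.2.1⟩, ⟨Ne.symm he.2.2.2, Ne.symm hf.2.2.2⟩, hef⟩

/-- the centre in the form `Ctr` -/
theorem DPt.ctr' (h : Irr U T) (hz : DPt T z a b c d) (nd : [a, b, c, d, e, f].Nodup) :
    Ctr U T z a b c d e f :=
  ⟨h, hz.pal, nd, fun y hy hcon hsub => h.twoPairs hz y hy hcon hsub⟩

/-- the centre in the form `Ctr` -/
theorem DPt.ctr (h : Irr U T)
    (_hmin : ∀ z, 4 ≤ (T z).ncard → ∀ s, s ⊆ T z → s ≠ T z →
      ¬ ∀ᶠ w in 𝓝 z, ∃ i ∈ s, w ∈ U i ∨ (w ∈ XX U ∧ i ∈ Pal U w))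
    (hz : DPt T z a b c d) (nd : [a, b, c, d, e, f].Nodup) : Ctr U T z a b c d e f :=
  hz.ctr' h nd

/-- an exact `ab`-arc has an end point -/
theorem DPt.arc_end (h : Irr U T) (hz : DPt T z a b c d)
    (h3 : ∀ y, dist y z = 1 → (T y).ncard ≤ 3) :
    ∃ y g, dist y z = 1 ∧ g ∉ T z ∧ T y = {a, b, g} := by
  obtain ⟨p, hp⟩ := hz.arc1
  obtain ⟨p2, hp2⟩ := hz.arc2
  obtain ⟨q2, hq2, hne, hop⟩ := hp2.exists_off_line (y := p2)
  obtain ⟨t0, ht0⟩ := exists_cis (u := p - z) (by rw [← dist_eq_norm]; exact hp.1)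
  have hgt : p = z + cis t0 := by rw [← ht0]; ring
  rw [hgt] at hp
  obtain ⟨η, hη, hJ⟩ := hp.exists_eta
  obtain ⟨l, g, -, -, -, -, hTl, hg⟩ := h.exists_arc_end (z := z) (P := {a, b}) (Q := {c, d})
    (θ := t0) (o := 1) (ε := η) (Or.inl rfl) (Set.ncard_pair hz.ab)
    (by rw [hz.pal]; ext i; simp only [mem_insert_iff, mem_singleton_iff, mem_union]; tauto) hη
    (fun t ht => hJ _ (by
      rw [one_mul, sub_sub_cancel_left, abs_neg, abs_of_pos ht.1]; exact ht.2))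
    h3 (Set.ncard_pair hz.cd) (y₁ := q2) (y₂ := p2) hq2.1 hp2.1 hne hop
    (by rw [hq2.mem]) (by rw [hp2.mem])
  refine ⟨z + cis (t0 - 1 * l), g, dist_add_cis z _, hg, ?_⟩
  rw [hTl]
  ext i
  simp only [mem_insert_iff, mem_singleton_iff]
  tauto

/-- two points with complementary palettes are ends -/
theorem Cfg.ends (h : Irr U T) (C : Cfg T z V Q a b c d e f)
    (h4 : (T (V + Q - z)).ncard ≤ 4) : EE T z V ∧ EE T z Q ∧ T Q = (T V)ᶜ := by
  have hz := C.dp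
  have card4 : (T z).ncard = 4 := by
    rw [hz.pal, Set.ncard_insert_of_notMem (by simp [hz.ab, hz.ac, hz.ad]) (Set.toFinite _),
      Set.ncard_insert_of_notMem (by simp [hz.bc, hz.bd]) (Set.toFinite _), Set.ncard_pair hz.cd]
  -- one end
  have key : ∀ {V Q : ℂ} {a b c d e f : Fin 6}, Cfg T z V Q a b c d e f →
      (T (V + Q - z)).ncard ≤ 4 → ∃ o, OEnd T z V o := by
    intro V Q a b c d e f C h4
    have hP : T z ∩ T V = {a, b} := by
      rw [C.dp.pal, C.TV]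
      ext i
      simp only [mem_inter_iff, mem_insert_iff, mem_singleton_iff]
      constructor
      · rintro ⟨h1, h2⟩
        rcases h2 with rfl | rfl | rfl
        · exact Or.inl rfl
        · exact Or.inr rfl
        · rcases h1 with h1 | h1 | h1 | h1
          exacts [Or.inl h1, Or.inr h1, absurd h1 C.ec, absurd h1 C.ed]
      · rintro (rfl | rfl)
        · exact ⟨Or.inl rfl, Or.inl rfl⟩
        · exact ⟨Or.inr (Or.inl rfl), Or.inr (Or.inl rfl)⟩
    have hV3 : (T V).ncard = 3 := by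
      rw [C.TV]
      exact Set.ncard_eq_three.2 ⟨a, b, e, C.dp.ab, C.ea.symm, C.eb.symm, rfl⟩
    have fin : ∀ {P : Set (Fin 6)} {l : Fin 6} {o : ℝ}, P = {a, b} → CEnd T z V P l o →
        OEnd T z V o := by
      intro P l o hPe hE
      obtain ⟨ε, hε, hs⟩ := mem_nhdsGT_iff_exists_Ioo_subset.1 hE.arc
      refine ⟨hE.o1, C.hV, card4, hV3, by rw [hP]; exact Set.ncard_pair C.dp.ab, ε, hε,
        fun t ht => ?_⟩
      have h5 := hs ht
      simp only [Set.mem_ofPred_eq] at h5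
      rw [neg_mul] at h5
      rw [hP, ← hPe]; exact h5
    rcases C.normal h h4 with N | N | N | N
    · obtain ⟨o, hE, -⟩ := N.lp1 h
      exact ⟨o, fin rfl hE⟩
    · obtain ⟨o, hE, -⟩ := N.lp1 h
      exact ⟨o, fin (pair_comm _ _) hE⟩
    · obtain ⟨o, hE, -⟩ := N.lp1 h
      exact ⟨o, fin rfl hE⟩
    · obtain ⟨o, hE, -⟩ := N.lp1 h
      exact ⟨o, fin (pair_comm _ _) hE⟩
  -- the other pair
  have dif : ∀ {V Q : ℂ} {a b c d e f : Fin 6}, Cfg T z V Q a b c d e f →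
      T z \ T V = {c, d} := by
    intro V Q a b c d e f C
    rw [C.dp.pal, C.TV]
    ext i
    simp only [Set.mem_sdiff, mem_insert_iff, mem_singleton_iff, not_or]
    constructor
    · rintro ⟨h1, h2, h3, -⟩
      rcases h1 with h1 | h1 | h1 | h1
      exacts [absurd h1 h2, absurd h1 h3, Or.inl h1, Or.inr h1]
    · rintro (rfl | rfl)
      · exact ⟨Or.inr (Or.inr (Or.inl rfl)), C.dp.ac.symm, C.dp.bc.symm, C.ec.symm⟩
      · exact ⟨Or.inr (Or.inr (Or.inr rfl)), C.dp.ad.symm, C.dp.bd.symm, C.ed.symm⟩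
  refine ⟨⟨key C h4, ?_⟩, ⟨key C.swap (by rw [add_comm]; exact h4), ?_⟩, ?_⟩
  · rw [dif C]; exact hz.arc2
  · rw [dif C.swap]; exact hz.arc1
  · ext i
    rw [C.TQ, C.TV]
    have h1 := C.cover i
    constructor
    · rintro (rfl | rfl | hi) h2
      · rcases h2 with h2 | h2 | h2
        exacts [hz.ac h2.symm, hz.bc h2.symm, C.ec h2.symm]
      · rcases h2 with h2 | h2 | h2
        exacts [hz.ad h2.symm, hz.bd h2.symm, C.ed h2.symm]
      · rw [mem_singleton_iff] at hi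
        subst hi
        rcases h2 with h2 | h2 | h2
        exacts [C.fa h2, C.fb h2, C.ef h2.symm]
    · intro h2
      simp only [mem_compl_iff, mem_insert_iff, mem_singleton_iff, not_or] at h2
      rcases h1 with h1 | h1 | h1 | h1 | h1 | h1
      exacts [absurd h1 h2.1, absurd h1 h2.2.1, Or.inl h1, Or.inr (Or.inl h1), absurd h1 h2.2.2,
        Or.inr (Or.inr h1)]

/-- **Start of the network argument**: a two-pair centre has two complementary ends. -/
theorem DPt.start' (h : Irr U T)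
    (h4 : ∀ z, (T z).ncard ≤ 4) (h3 : ∀ y, dist y z = 1 → (T y).ncard ≤ 3)
    (hz : DPt T z a b c d) :
    ∃ v q, EE T z v ∧ EE T z q ∧ T q = (T v)ᶜ := by
  obtain ⟨e, f, nd⟩ := hz.exists_nodup
  have C := hz.ctr' h nd
  have nd' : [a, b, c, d, f, e].Nodup := by
    have : [a, b, c, d, f, e].Perm [a, b, c, d, e, f] := by
      refine List.Perm.cons _ (List.Perm.cons _ (List.Perm.cons _ (List.Perm.cons _ ?_)))
      exact List.Perm.swap _ _ _
    exact this.nodup_iff.2 nd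
  have C' := hz.ctr' h nd'
  obtain ⟨⟨ab, ac, ad, ae, af⟩, ⟨bc, bd, be, bf⟩, ⟨cd, ce, cf⟩, ⟨de, df⟩, ef⟩ := nd_ne nd
  have he : e ∉ T z := by
    rw [hz.pal]
    simp only [mem_insert_iff, mem_singleton_iff, not_or]
    exact ⟨ae.symm, be.symm, ce.symm, de.symm⟩
  have hf : f ∉ T z := by
    rw [hz.pal]
    simp only [mem_insert_iff, mem_singleton_iff, not_or]
    exact ⟨af.symm, bf.symm, cf.symm, df.symm⟩
  -- the two kinds of complementary pairs
  have fin1 : ∀ {V Q : ℂ}, dist V z = 1 → dist Q z = 1 → T V = {a, b, e} → T Q = {c, d, f} →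
      ∃ v q, EE T z v ∧ EE T z q ∧ T q = (T v)ᶜ := by
    intro V Q hV hQ h1 h2
    exact ⟨V, Q, Cfg.ends h ⟨hz, hV, hQ, h1, h2, he, hf, ef⟩ (h4 _)⟩
  have fin2 : ∀ {V Q : ℂ}, dist V z = 1 → dist Q z = 1 → T V = {a, b, f} → T Q = {c, d, e} →
      ∃ v q, EE T z v ∧ EE T z q ∧ T q = (T v)ᶜ := by
    intro V Q hV hQ h1 h2
    exact ⟨V, Q, Cfg.ends h ⟨hz, hV, hQ, h1, h2, hf, he, ef.symm⟩ (h4 _)⟩
  obtain ⟨y1, d1, k1⟩ := L1e_of C h3
  obtain ⟨y2, d2, k2⟩ := L1e_of C' h3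
  obtain ⟨y3, g3, d3, hg3, k3⟩ := hz.arc_end h h3
  obtain ⟨y4, g4, d4, hg4, k4⟩ := hz.swap.arc_end h h3
  rcases C.miss hg3 with rfl | rfl
  · -- `y3 = abe`
    rcases C.miss hg4 with rfl | rfl
    · -- `y4 = cde`
      rcases k2 with k2 | k2
      · exact fin2 d2 d4 k2 k4
      · exact fin1 d3 d2 k3 k2
    · exact fin1 d3 d4 k3 k4
  · -- `y3 = abf`
    rcases C.miss hg4 with rfl | rfl
    · exact fin2 d3 d4 k3 k4
    · rcases k1 with k1 | k1
      · exact fin1 d1 d4 k1 k4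
      · exact fin2 d3 d1 k3 k1

/-- the same with the (unused) minimality among the hypotheses -/
theorem DPt.start (h : Irr U T)
    (_hmin : ∀ z, 4 ≤ (T z).ncard → ∀ s, s ⊆ T z → s ≠ T z →
      ¬ ∀ᶠ w in 𝓝 z, ∃ i ∈ s, w ∈ U i ∨ (w ∈ XX U ∧ i ∈ Pal U w))
    (h4 : ∀ z, (T z).ncard ≤ 4) (h3 : ∀ y, dist y z = 1 → (T y).ncard ≤ 3)
    (hz : DPt T z a b c d) :
    ∃ v q, EE T z v ∧ EE T z q ∧ T q = (T v)ᶜ :=
  hz.start' h h4 h3

/-- the same without unit pairs of four coloured points -/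
theorem DPt.start_of' (h : Irr U T) (h4 : ∀ z, (T z).ncard ≤ 4)
    (hu : ∀ z z', 4 ≤ (T z).ncard → 4 ≤ (T z').ncard → dist z z' ≠ 1)
    (hz : DPt T z a b c d) :
    ∃ v q, EE T z v ∧ EE T z q ∧ T q = (T v)ᶜ := by
  refine hz.start' h h4 fun y hy => ?_
  by_contra hcon
  push Not at hcon
  have card4 : (T z).ncard = 4 := by
    rw [hz.pal, Set.ncard_insert_of_notMem (by simp [hz.ab, hz.ac, hz.ad]) (Set.toFinite _),
      Set.ncard_insert_of_notMem (by simp [hz.bc, hz.bd]) (Set.toFinite _), Set.ncard_pair hz.cd]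
  exact hu y z (by omega) (by omega) hy

/-- the same with the (unused) minimality among the hypotheses -/
theorem DPt.start_of (h : Irr U T)
    (_hmin : ∀ z, 4 ≤ (T z).ncard → ∀ s, s ⊆ T z → s ≠ T z →
      ¬ ∀ᶠ w in 𝓝 z, ∃ i ∈ s, w ∈ U i ∨ (w ∈ XX U ∧ i ∈ Pal U w))
    (h4 : ∀ z, (T z).ncard ≤ 4)
    (hu : ∀ z z', 4 ≤ (T z).ncard → 4 ≤ (T z').ncard → dist z z' ≠ 1)
    (hz : DPt T z a b c d) :
    ∃ v q, EE T z v ∧ EE T z q ∧ T q = (T v)ᶜ :=
  hz.start_of' h h4 hu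

end Vale.Agent.P032.Six
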