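import Vale.Agent.P032.S5.H225.Germ
import Vale.Agent.P032.S5.H394.Ends
import Vale.Agent.P032.S5.H824.Two

/-!
# P032: the list of the two-pair centres on the circle of a two-pair centre (row L4)

`SpEnd T z v`: `z` and `v` are two-pair centres at distance 1 and `v` is an end of an exact arc of
`S(z)`; constructors `eq` (crossed EQ), `beta`, `alpha` with the germs of `S(z)` at `v`.
`Irr.spEnd`: a two-pair centre `v ∈ S(z)` at which the exact `ab`- or `cd`-points of `S(z)`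
accumulate is such an end.  `Irr.no_acc`: if they do not accumulate, then every point of `S(z)` near
`v` has a colour which is not in `T z`.
-/

open Set Filter Topology Metric

noncomputable section

namespace Vale.Agent.P032.Six

variable {U : Fin 6 → Set ℂ} {T : ℂ → Set (Fin 6)} {z v : ℂ}

/-- special ends of `S(z)` which are two-pair centres -/
inductive SpEnd (T : ℂ → Set (Fin 6)) (z v : ℂ) : Prop
  /-- crossed EQ: a direct junction `ab | cd` -/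
  | eq (a b c d : Fin 6) (τ : ℝ) (hz : DPt T z a b c d) (hv : DPt T v a c b d)
      (hτ : τ = 1 ∨ τ = -1) (h1 : ∀ᶠ t : ℝ in 𝓝[>] 0, T (hb z v τ t) = {a, b})
      (h2 : ∀ᶠ t : ℝ in 𝓝[>] 0, T (hb z v (-τ) t) = {c, d}) : SpEnd T z v
  /-- beta: exact `ab` on one side, `g` everywhere on the other side -/
  | beta (a b c d g : Fin 6) (τ : ℝ) (hz : DPt T z a b c d) (hg : g ∉ T z) (hv : DPt T v a c b g)
      (hτ : τ = 1 ∨ τ = -1) (h1 : ∀ᶠ t : ℝ in 𝓝[>] 0, T (hb z v τ t) = {a, b})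
      (h2 : ∀ᶠ t : ℝ in 𝓝[>] 0, T (hb z v (-τ) t) ⊆ {c, g} ∧ g ∈ T (hb z v (-τ) t)) : SpEnd T z v
  /-- alpha: exact `ab` on one side, only the two outside colours on the other side -/
  | alpha (a b c d e f : Fin 6) (τ : ℝ) (hz : DPt T z a b c d) (he : e ∉ T z) (hf : f ∉ T z)
      (hv : DPt T v a e b f) (hτ : τ = 1 ∨ τ = -1)
      (h1 : ∀ᶠ t : ℝ in 𝓝[>] 0, T (hb z v τ t) = {a, b})
      (h2 : ∀ᶠ t : ℝ in 𝓝[>] 0, T (hb z v (-τ) t) ⊆ {e, f}) : SpEnd T z v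

/-- a palette which accumulates at `v` on `S(z)` accumulates on a half branch -/
theorem freq_branch (hvz : dist v z = 1) {P : Set (Fin 6)} (hne : T v ≠ P)
    (h1 : ∃ᶠ q in 𝓝[sphere z 1] v, T q = P) :
    ∃ τ : ℝ, (τ = 1 ∨ τ = -1) ∧ ∃ᶠ t : ℝ in 𝓝[>] 0, T (hb z v τ t) = P := by
  by_contra hcon
  have h2 : ∀ τ : ℝ, (τ = 1 ∨ τ = -1) → ∀ᶠ t : ℝ in 𝓝[>] 0, ¬ T (hb z v τ t) = P := by
    intro τ hτ
    by_contra h3
    exact hcon ⟨τ, hτ, h3⟩
  obtain ⟨ε₁, hε₁, k1⟩ := mem_nhdsGT_iff_exists_Ioo_subset.1 (h2 (-1) (Or.inr rfl))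
  obtain ⟨ε₂, hε₂, k2⟩ := mem_nhdsGT_iff_exists_Ioo_subset.1 (h2 1 (Or.inl rfl))
  refine h1 (eventually_circle_of hvz (p := fun q => ¬ T q = P) hne hε₁ hε₂ ?_ ?_)
  · intro t ht
    have h3 : ¬ T (hb z v (-1) t) = P := k1 ht
    rw [hb, neg_one_mul] at h3
    rw [one_mul]
    exact h3
  · intro t ht
    have h3 : ¬ T (hb z v 1 t) = P := k2 ht
    rw [hb, one_mul] at h3
    rw [neg_one_mul, neg_neg]
    exact h3

/-- the exact `ab`-points accumulate at the two-pair centre `v` -/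
theorem Irr.sp_core (h : Irr U T) {a b p q r s : Fin 6} (ha : a ∈ T z) (hb' : b ∈ T z)
    (hab : a ≠ b) (hv : DPt T v p q r s) (hvz : dist v z = 1)
    (hacc : ∃ᶠ w in 𝓝[sphere z 1] v, T w = {a, b}) :
    ∃ (τ : ℝ) (x y : Fin 6), (τ = 1 ∨ τ = -1) ∧ DPt T v a x b y ∧
      (∀ᶠ t : ℝ in 𝓝[>] 0, T (hb z v τ t) = {a, b}) ∧
        ∀ᶠ t : ℝ in 𝓝[>] 0, T (hb z v (-τ) t) ⊆ {x, y} := by
  have hne : T v ≠ {a, b} := by
    intro h1
    have h2 : (T v).ncard = 4 := by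
      rw [hv.pal, Set.ncard_insert_of_notMem (by simp [hv.ab, hv.ac, hv.ad]) (Set.toFinite _),
        Set.ncard_insert_of_notMem (by simp [hv.bc, hv.bd]) (Set.toFinite _), Set.ncard_pair hv.cd]
    rw [h1, Set.ncard_pair hab] at h2
    omega
  obtain ⟨σ, hσ, hf⟩ := freq_branch hvz hne hacc
  have fin : ∀ x1 x2 y1 y2 : Fin 6, DPt T v x1 x2 y1 y2 →
      (∀ᶠ t : ℝ in 𝓝[>] 0, T (hb z v σ t) ⊆ {x1, y1}) →
      (∀ᶠ t : ℝ in 𝓝[>] 0, T (hb z v (-σ) t) ⊆ {x2, y2}) →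
      ∃ (τ : ℝ) (x y : Fin 6), (τ = 1 ∨ τ = -1) ∧ DPt T v a x b y ∧
        (∀ᶠ t : ℝ in 𝓝[>] 0, T (hb z v τ t) = {a, b}) ∧
          ∀ᶠ t : ℝ in 𝓝[>] 0, T (hb z v (-τ) t) ⊆ {x, y} := by
    intro x1 x2 y1 y2 hD h1 h2
    obtain ⟨t, ht, ht'⟩ := (hf.and_eventually h1).exists
    rw [ht] at ht'
    have ka : a = x1 ∨ a = y1 := by
      have := ht' (show a ∈ ({a, b} : Set (Fin 6)) by simp)
      simpa using this
    have kb : b = x1 ∨ b = y1 := by
      have := ht' (show b ∈ ({a, b} : Set (Fin 6)) by simp)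
      simpa using this
    rcases ka with ka | ka <;> rcases kb with kb | kb
    · exact absurd (ka.trans kb.symm) hab
    · subst ka
      subst kb
      exact ⟨σ, x2, y2, hσ, hD, h.hb_exact hvz h1 (h.sub _ ha) (h.sub _ hb'), h2⟩
    · subst ka
      subst kb
      refine ⟨σ, y2, x2, hσ, hD.swap, ?_, ?_⟩
      · refine h.hb_exact hvz ?_ (h.sub _ ha) (h.sub _ hb')
        rw [pair_comm]
        exact h1
      · rw [pair_comm]
        exact h2
    · exact absurd (ka.trans kb.symm) hab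
  have key : ∀ x1 x2 y1 y2 : Fin 6, DPt T v x1 x2 y1 y2 → Gm T z v x1 y1 x2 y2 →
      ∃ (τ : ℝ) (x y : Fin 6), (τ = 1 ∨ τ = -1) ∧ DPt T v a x b y ∧
        (∀ᶠ t : ℝ in 𝓝[>] 0, T (hb z v τ t) = {a, b}) ∧
          ∀ᶠ t : ℝ in 𝓝[>] 0, T (hb z v (-τ) t) ⊆ {x, y} := by
    intro x1 x2 y1 y2 hD hG
    rcases hσ with rfl | rfl
    · exact fin x1 x2 y1 y2 hD hG.1 hG.2
    · refine fin x2 x1 y2 y1 hD.swap12.swap34 hG.2 ?_
      rw [neg_neg]
      exact hG.1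
  rcases h.germ_branch hv hvz with h1 | h1 | h1 | h1
  · exact key p q r s hv h1
  · exact key p q s r hv.swap34 h1
  · exact key q p r s hv.swap12 h1
  · exact key q p s r hv.swap12.swap34 h1

/-- **the three kinds of special ends**, names of the colours of `z` fixed -/
theorem Irr.sp_cases (h : Irr U T) {a b c d p q r s : Fin 6} (hz : DPt T z a b c d)
    (hv : DPt T v p q r s) (hvz : dist v z = 1)
    (hacc : ∃ᶠ w in 𝓝[sphere z 1] v, T w = {a, b}) :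
    ∃ τ : ℝ, (τ = 1 ∨ τ = -1) ∧ (∀ᶠ t : ℝ in 𝓝[>] 0, T (hb z v τ t) = {a, b}) ∧
      (((DPt T v a c b d ∨ DPt T v a d b c) ∧ ∀ᶠ t : ℝ in 𝓝[>] 0, T (hb z v (-τ) t) = {c, d}) ∨
      (∃ x g, (x = c ∨ x = d) ∧ g ∉ T z ∧ (DPt T v a x b g ∨ DPt T v b x a g) ∧
        ∀ᶠ t : ℝ in 𝓝[>] 0, T (hb z v (-τ) t) ⊆ {x, g} ∧ g ∈ T (hb z v (-τ) t)) ∨
      ∃ e f, e ∉ T z ∧ f ∉ T z ∧ DPt T v a e b f ∧
        ∀ᶠ t : ℝ in 𝓝[>] 0, T (hb z v (-τ) t) ⊆ {e, f}) := by
  have ha : a ∈ T z := by rw [hz.pal]; simp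
  have hb' : b ∈ T z := by rw [hz.pal]; simp
  have hc : c ∈ T z := by rw [hz.pal]; simp
  have hd : d ∈ T z := by rw [hz.pal]; simp
  obtain ⟨τ, x, y, hτ, hD, h1, h2⟩ := h.sp_core ha hb' hz.ab hv hvz hacc
  refine ⟨τ, hτ, h1, ?_⟩
  have mem : ∀ i : Fin 6, i ∈ T z → i ≠ a → i ≠ b → i = c ∨ i = d := by
    intro i hi h3 h4
    rw [hz.pal] at hi
    simp only [mem_insert_iff, mem_singleton_iff] at hi
    rcases hi with h5 | h5 | h5 | h5
    exacts [absurd h5 h3, absurd h5 h4, Or.inl h5, Or.inr h5]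
  by_cases hx : x ∈ T z
  · by_cases hy : y ∈ T z
    · left
      have h3 := h.hb_exact hvz h2 (h.sub _ hx) (h.sub _ hy)
      rcases mem x hx hD.ab.symm hD.bc with rfl | rfl
      · rcases mem y hy hD.ad.symm hD.cd.symm with h5 | rfl
        · exact absurd h5.symm hD.bd
        · exact ⟨Or.inl hD, h3⟩
      · rcases mem y hy hD.ad.symm hD.cd.symm with rfl | h5
        · refine ⟨Or.inr hD, ?_⟩
          rw [pair_comm]
          exact h3
        · exact absurd h5.symm hD.bd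
    · right; left
      exact ⟨x, y, mem x hx hD.ab.symm hD.bc, hy, Or.inl hD,
        h2.and (h.hb_mem hvz h2 (h.sub _ hx))⟩
  · by_cases hy : y ∈ T z
    · right; left
      have h2' : ∀ᶠ t : ℝ in 𝓝[>] 0, T (hb z v (-τ) t) ⊆ {y, x} := by
        rw [pair_comm]
        exact h2
      exact ⟨y, x, mem y hy hD.ad.symm hD.cd.symm, hx, Or.inr hD.swap,
        h2'.and (h.hb_mem hvz h2' (h.sub _ hy))⟩
    · right; right
      exact ⟨x, y, hx, hy, hD, h2⟩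

/-- one pair accumulates -/
theorem Irr.spEnd_ab (h : Irr U T) {a b c d p q r s : Fin 6} (hz : DPt T z a b c d)
    (hv : DPt T v p q r s) (hvz : dist v z = 1)
    (hacc : ∃ᶠ w in 𝓝[sphere z 1] v, T w = {a, b}) : SpEnd T z v := by
  obtain ⟨τ, hτ, h1, h2⟩ := h.sp_cases hz hv hvz hacc
  rcases h2 with ⟨hD | hD, h2⟩ | ⟨x, g, hx, hg, hD, h2⟩ | ⟨e, f, he, hf, hD, h2⟩
  · exact SpEnd.eq a b c d τ hz hD hτ h1 h2
  · refine SpEnd.eq a b d c τ hz.swap34 hD hτ h1 ?_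
    rw [pair_comm]
    exact h2
  · have h1' : ∀ᶠ t : ℝ in 𝓝[>] 0, T (hb z v τ t) = {b, a} := by
      rw [pair_comm]
      exact h1
    rcases hx with rfl | rfl <;> rcases hD with hD | hD
    · exact SpEnd.beta a b x d g τ hz hg hD hτ h1 h2
    · exact SpEnd.beta b a x d g τ hz.swap12 hg hD hτ h1' h2
    · exact SpEnd.beta a b x c g τ hz.swap34 hg hD hτ h1 h2
    · exact SpEnd.beta b a x c g τ hz.swap12.swap34 hg hD hτ h1' h2
  · exact SpEnd.alpha a b c d e f τ hz he hf hD hτ h1 h2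

/-- **List of the special ends** (L4): a two-pair centre on the circle of a two-pair centre at
which one of the two pairs accumulates. -/
theorem Irr.spEnd (h : Irr U T) {a b c d p q r s : Fin 6} (hz : DPt T z a b c d)
    (hv : DPt T v p q r s) (hvz : dist v z = 1)
    (hacc : (∃ᶠ w in 𝓝[sphere z 1] v, T w = {a, b}) ∨
      ∃ᶠ w in 𝓝[sphere z 1] v, T w = {c, d}) : SpEnd T z v := by
  rcases hacc with h1 | h1
  · exact h.spEnd_ab hz hv hvz h1
  · exact h.spEnd_ab hz.swap hv hvz h1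

/-- **no accumulation** (tolerated flip points): every point of `S(z)` near `v` has a colour
outside `T z`.  `v` is arbitrary. -/
theorem Irr.no_acc (h : Irr U T) {a b c d : Fin 6} (hz : DPt T z a b c d)
    (h1 : ¬ ∃ᶠ w in 𝓝[sphere z 1] v, T w = {a, b})
    (h2 : ¬ ∃ᶠ w in 𝓝[sphere z 1] v, T w = {c, d}) :
    ∀ᶠ w in 𝓝[sphere z 1] v, ¬ T w ⊆ T z := by
  rw [not_frequently] at h1 h2
  obtain ⟨V, hV, hVs⟩ := mem_nhdsWithin_iff_exists_mem_nhds_inter.1 (h1.and h2)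
  obtain ⟨O, hOV, hO, hvO⟩ := _root_.mem_nhds_iff.1 hV
  refine mem_nhdsWithin_iff_exists_mem_nhds_inter.2 ⟨O, hO.mem_nhds hvO, ?_⟩
  rintro w ⟨hwO, hwz⟩ hsub
  obtain ⟨y, hyO, hy, hyc, hys, -, -⟩ := h.arc_of_sub (x := z) (y := w) hwz hsub (hO.mem_nhds hwO)
  have h3 := hVs ⟨hOV hyO, hy⟩
  rcases h.twoPairs hz y hy hyc (hys.trans hsub) with h4 | h4
  · exact h3.1 h4
  · exact h3.2 h4

/-- the same with the two outside colours named -/
theorem Irr.no_acc_ef (h : Irr U T) {a b c d e f : Fin 6} (hz : DPt T z a b c d)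
    (nd : [a, b, c, d, e, f].Nodup)
    (h1 : ¬ ∃ᶠ w in 𝓝[sphere z 1] v, T w = {a, b})
    (h2 : ¬ ∃ᶠ w in 𝓝[sphere z 1] v, T w = {c, d}) :
    ∀ᶠ w in 𝓝[sphere z 1] v, e ∈ T w ∨ f ∈ T w := by
  filter_upwards [h.no_acc hz h1 h2] with w hw
  by_contra hcon
  push Not at hcon
  refine hw fun i hi => ?_
  have hcov : ∀ a b c d e f i : Fin 6, [a, b, c, d, e, f].Nodup → i ≠ e → i ≠ f →
      i = a ∨ i = b ∨ i = c ∨ i = d := by
    intro a b c d e f i nd hie hif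
    have h3 : ({a, b, c, d, e, f} : Finset (Fin 6)) = Finset.univ := by
      refine Finset.eq_univ_of_card _ ?_
      have h4 : ([a, b, c, d, e, f] : List (Fin 6)).toFinset = {a, b, c, d, e, f} := by
        simp
      rw [← h4, List.toFinset_card_of_nodup nd]
      rfl
    have h5 : i ∈ ({a, b, c, d, e, f} : Finset (Fin 6)) := by rw [h3]; exact Finset.mem_univ i
    simp only [Finset.mem_insert, Finset.mem_singleton] at h5
    rcases h5 with h6 | h6 | h6 | h6 | h6 | h6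
    exacts [Or.inl h6, Or.inr (Or.inl h6), Or.inr (Or.inr (Or.inl h6)),
      Or.inr (Or.inr (Or.inr h6)), absurd h6 hie, absurd h6 hif]
  rw [hz.pal]
  simp only [mem_insert_iff, mem_singleton_iff]
  refine hcov a b c d e f i nd ?_ ?_
  · rintro rfl
    exact hcon.1 hi
  · rintro rfl
    exact hcon.2 hi

end Vale.Agent.P032.Six
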